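import Vale.Agent.P266.Model

/-- The Lipman-Zariski conjecture fails: a finitely generated complex domain with free
derivation module that is neither regular nor smooth. -/
theorem Vale.Agent.Results.P266.Counterexample.result :
    ∃ (A : Type) (_ : CommRing A) (_ : IsDomain A) (_ : Algebra ℂ A),
      Algebra.FiniteType ℂ A ∧ Module.Free A (Derivation ℂ A A) ∧
      Module.Projective A (Derivation ℂ A A) ∧ ¬ IsRegularRing A ∧ ¬ Algebra.Smooth ℂ A := by
  obtain ⟨A, _, _, _, h1, h2, h3, h4⟩ := Vale.Agent.P266.main
  exact ⟨A, _, ‹_›, _, h1, h2, inferInstance, h3, h4⟩
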